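import Mathlib
import Vale.Agent.Lib.P046.Main

/-!
An unconditional inequality at the conjectured order for random triangle removal: with `F` the
number of edges of the final graph and `M` the number of steps at which the removed triangle
shares no edge with another triangle of the current graph, `7 E[F] + 9 E[M]` is at least
`(n - 1) √n`.
-/

namespace Vale.Agent.Results.P046.A_main

open Vale.Agent.Lib.P046

/-- For `n ≥ 3`, the random triangle removal process started from the complete graph on `n`
vertices satisfies `(n - 1) √n ≤ 7 E[F] + 9 E[M]`. -/
theorem result (n : ℕ) (hn : 3 ≤ n) :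
    ((n : ℝ) - 1) * Real.sqrt n ≤
      7 * expF (⊤ : SimpleGraph (Fin n)) + 9 * expM (⊤ : SimpleGraph (Fin n)) :=
  main_ineq hn

end Vale.Agent.Results.P046.A_main
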